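import Vale.Agent.P030.H440.Build
import Vale.Agent.P030.V1.Ents

/-!
# P030, route N: the literal table and its static check
-/

namespace Vale.Agent.P030.V1

open Vale.Agent.P030.H532 Vale.Agent.P030.H440 Vale.Agent.P030.H440.Bd

/-- the constants of the blocks -/
def tabG : List ℤ := [17620885406, 18325317732, 17053817667, 17608183691, 16135239060, 18335687508, 18320959583, 18321081140]

/-- **the table** -/
def tab : KTab := ⟨1073741824, 10000000, ents, tabG⟩

theorem tab_ok : tab.ok = true := by decide +kernel

theorem tab_SD : tab.SD = 5629869032 := by decide +kernel

/-- the constants in machine form -/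
def cs : List ℕ := [12761604938983800832, 18812632543814221824, 7890530151740473344, 12652498037927575552, 0, 18901708241387913216, 18775196328962031616, 18776240495641231360]

theorem cs_ok : csOk cs tab.G = true := by decide +kernel

end Vale.Agent.P030.V1
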